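/-
P235-M, row C (helper418): plane graphs with s, t on one face and a height function without
interior extrema have a sweep.  Definitions and the literal sub-rows C2.1 - C2.4.

Everything is said with darts: `W` is a set of darts closed under `faceNext σ` (a set of faces),
`d ∈ W` says that the face to the right of the up-dart `d` is swept, `d.symm ∈ W` that the face to
the left of `d` is swept.
-/
import Vale.Agent.P235.R2.RED.Stmts

namespace Vale.Agent.P235.Red.C

variable {V : Type} {G : SimpleGraph V}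

/-- up-darts -/
def Up (h : V → ℝ) (d : G.Dart) : Prop := h d.fst < h d.snd

/-- the darts of the outer face -/
def F0 (σ : Equiv.Perm G.Dart) (d₀ d : G.Dart) : Prop := (faceNext σ).SameCycle d₀ d

/-- the hypotheses of row C together with the conclusion of row C1 -/
structure Ctx (σ : Equiv.Perm G.Dart) (d₀ : G.Dart) (h : V → ℝ) (s t : V) : Prop where
  con : G.Connected
  pm : PlaneMap G σ
  hs : s ∈ onFace σ d₀
  ht : t ∈ onFace σ d₀
  ud : UpDown G h s t
  /-- one up-dart followed by a down-dart in the rotation at a vertex -/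
  ud1 : ∀ d e : G.Dart, d.fst = e.fst → Up h d → ¬ Up h (σ d) → Up h e → ¬ Up h (σ e) → d = e
  /-- one down-dart followed by an up-dart in the rotation at a vertex -/
  du1 : ∀ d e : G.Dart, d.fst = e.fst → ¬ Up h d → Up h (σ d) → ¬ Up h e → Up h (σ e) → d = e
  /-- one up-dart followed by a down-dart along a face -/
  ud2 : ∀ d e : G.Dart, (faceNext σ).SameCycle d e → Up h d → ¬ Up h (faceNext σ d) →
    Up h e → ¬ Up h (faceNext σ e) → d = e
  /-- one down-dart followed by an up-dart along a face -/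
  du2 : ∀ d e : G.Dart, (faceNext σ).SameCycle d e → ¬ Up h d → Up h (faceNext σ d) →
    ¬ Up h e → Up h (faceNext σ e) → d = e

/-- a state of the sweep: a set of faces (not the outer one) such that the face to the left of an
up-dart is swept before the face to its right -/
structure State (σ : Equiv.Perm G.Dart) (d₀ : G.Dart) (h : V → ℝ) (W : Set G.Dart) : Prop where
  cl : ∀ d, faceNext σ d ∈ W ↔ d ∈ W
  off : ∀ d ∈ W, ¬ F0 σ d₀ d
  left : ∀ d, Up h d → d ∈ W → d.symm ∈ W ∨ F0 σ d₀ d.symm

/-- the front: up-darts whose left face is swept (or outer) and whose right face is not swept -/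
def Front (σ : Equiv.Perm G.Dart) (d₀ : G.Dart) (h : V → ℝ) (W : Set G.Dart) (d : G.Dart) : Prop :=
  Up h d ∧ (d.symm ∈ W ∨ F0 σ d₀ d.symm) ∧ d ∉ W

/-- the vertices of the front -/
def PW (σ : Equiv.Perm G.Dart) (d₀ : G.Dart) (h : V → ℝ) (t : V) (W : Set G.Dart) : Set V :=
  {v | v = t ∨ ∃ d, Front σ d₀ h W d ∧ d.fst = v}

/-- conclusion of C2.1 (helper418): the front is a unit flow from `s` to `t` -/
structure Flow (σ : Equiv.Perm G.Dart) (d₀ : G.Dart) (h : V → ℝ) (s t : V) (W : Set G.Dart) :
    Prop where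
  out1 : ∀ d e, Front σ d₀ h W d → Front σ d₀ h W e → d.fst = e.fst → d = e
  in1 : ∀ d e, Front σ d₀ h W d → Front σ d₀ h W e → d.snd = e.snd → d = e
  thru : ∀ v, v ≠ s → v ≠ t → ((∃ d, Front σ d₀ h W d ∧ d.fst = v) ↔
    ∃ d, Front σ d₀ h W d ∧ d.snd = v)
  start : ∃ d, Front σ d₀ h W d ∧ d.fst = s
  fin : ∃ d, Front σ d₀ h W d ∧ d.snd = t

/-- C2.1 (helper418) -/
def C21 : Prop :=
  ∀ (V : Type) [Finite V] (G : SimpleGraph V) (σ : Equiv.Perm G.Dart) (d₀ : G.Dart) (h : V → ℝ)
    (s t : V), Ctx σ d₀ h s t → ∀ W, State σ d₀ h W → Flow σ d₀ h s t W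

/-- C2.1' (helper418): contiguity -/
def C21' : Prop :=
  ∀ (V : Type) [Finite V] (G : SimpleGraph V) (σ : Equiv.Perm G.Dart) (d₀ : G.Dart) (h : V → ℝ)
    (s t : V), Ctx σ d₀ h s t → ∀ W₁ W₂ W₃, State σ d₀ h W₁ → State σ d₀ h W₂ →
    State σ d₀ h W₃ → W₁ ⊆ W₂ → W₂ ⊆ W₃ → ∀ v, v ∈ PW σ d₀ h t W₁ → v ∈ PW σ d₀ h t W₃ →
    v ∈ PW σ d₀ h t W₂

/-- C2.2 (helper418): the front is a path -/
def C22 : Prop :=
  ∀ (V : Type) [Finite V] (G : SimpleGraph V) (σ : Equiv.Perm G.Dart) (d₀ : G.Dart) (h : V → ℝ)
    (s t : V), Ctx σ d₀ h s t → ∀ W, State σ d₀ h W → Flow σ d₀ h s t W →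
    (s ∈ PW σ d₀ h t W) ∧
    (∀ u ∈ PW σ d₀ h t W, ∀ v ∈ PW σ d₀ h t W, h u = h v → u = v) ∧
    (∀ u ∈ PW σ d₀ h t W, ∀ v ∈ PW σ d₀ h t W, h u < h v →
      (∀ w ∈ PW σ d₀ h t W, ¬ (h u < h w ∧ h w < h v)) → G.Adj u v) ∧
    (∀ d, Front σ d₀ h W d → d.fst ∈ PW σ d₀ h t W ∧ d.snd ∈ PW σ d₀ h t W ∧
      ∀ w ∈ PW σ d₀ h t W, ¬ (h d.fst < h w ∧ h w < h d.snd))

/-- C2.3 (helper808): a sweepable face exists.
PROOF. (0) If `d` is in the outer face, `¬ Up d`, `Up (faceNext σ d)` then `d.snd = s` (s is on the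
outer face, all darts at `s` are up, use `du2`); if `d` is in the outer face, `Up d`,
`¬ Up (faceNext σ d)` then `d.snd = t`.
(1) Take a front dart `e` with `¬ Up (faceNext σ e)` (the one entering `t` has this property) with
`h e.snd` minimal.
(2) Claim: if `a` is a front dart in the face of `e` with `h a.snd ≤ h e.snd`, and
`a' = (faceNext σ)⁻¹ a` is up, then `a'` is a front dart. For `x = a.fst = a'.snd` is not `s`
(h a'.fst < h x), so a front dart `b` enters `x` (thru); by minimality `Up (faceNext σ b)`;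
`faceNext σ b = σ b.symm`, `faceNext σ a' = σ a'.symm = a`, both `b.symm`, `a'.symm` are down-darts
at `x` followed by up-darts, so `b = a'` by `du1`.
(3) every up-dart `d` in the face of `e` is a front dart: going forward from `d` the first dart
whose successor is down is `e` (ud2), so `d` is reached from `e` by going backwards along up-darts.
(4) If the face of `e` is not the outer face, done. If it is: `e.snd = t` by (0), and all front
darts are in the outer face (if `b` is a front dart which is not, with `h b.snd` maximal: b.snd ≠ t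
by in1; a front dart `c` leaves `b.snd` (thru), it is in the outer face by maximality;
`(faceNext σ)⁻¹ c` is up by (0) because `b.snd ≠ s`, so it is a front dart by (2) and equals `b` by
in1).
Then `Z = {d | d ∉ W ∧ ¬ F0 d}` is closed under `faceNext σ` and under `symm` (for an up-dart `d`:
`d ∈ Z` and `d.symm ∉ Z` would make `d` a front dart outside the outer face; `d.symm ∈ Z` and
`d ∉ Z`: `d ∈ W` contradicts `State.left`, `F0 d` makes `d` a front dart by (3), contradiction), so
under `σ`, so by connectivity it is everything, but `d₀ ∉ Z`. -/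
def C23 : Prop :=
  ∀ (V : Type) [Finite V] (G : SimpleGraph V) (σ : Equiv.Perm G.Dart) (d₀ : G.Dart) (h : V → ℝ)
    (s t : V), Ctx σ d₀ h s t → ∀ W, State σ d₀ h W → Flow σ d₀ h s t W →
    (∃ d, d ∉ W ∧ ¬ F0 σ d₀ d) →
    ∃ e, e ∉ W ∧ ¬ F0 σ d₀ e ∧ ∀ d, (faceNext σ).SameCycle e d → Up h d → Front σ d₀ h W d

/-- C2.4 (helper934): assembly. `W 0 = ∅`, `W (i+1) = W i ∪ face of e` (C2.3) as long as possible,
then constant; every step adds a dart, there are at most `|V|²` darts, so `W (|V|²)` contains every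
dart outside the outer face; `P i = PW (W i)`. An up-dart `d` outside the outer face is in the front
just before its face is added, an up-dart in the outer face is in the last front. -/
def C24 : Prop := C21 → C21' → C22 → C23 → RowC1 → RowC

end Vale.Agent.P235.Red.C
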