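/-
P235-M, row C (helper418): basic facts on up-darts and on the outer face.
-/
import Vale.Agent.P235.R2.H418C.CDefs

namespace Vale.Agent.P235.Red.C

variable {V : Type} {G : SimpleGraph V} {σ : Equiv.Perm G.Dart} {d₀ : G.Dart} {h : V → ℝ}
  {s t : V}

theorem faceNext_apply (d : G.Dart) : faceNext σ d = σ d.symm := rfl

theorem faceNext_symm' (d : G.Dart) : faceNext σ d.symm = σ d := by
  rw [faceNext_apply, SimpleGraph.Dart.symm_symm]

theorem apply_inv' (d : G.Dart) : σ (σ⁻¹ d) = d := by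
  simp

theorem symm_fst (d : G.Dart) : d.symm.fst = d.snd := rfl

theorem symm_snd (d : G.Dart) : d.symm.snd = d.fst := rfl

theorem up_or (hu : UpDown G h s t) (d : G.Dart) : Up h d ∨ Up h d.symm := by
  rcases lt_or_gt_of_ne (hu.ne _ _ d.adj) with hd | hd
  · exact Or.inl hd
  · exact Or.inr hd

theorem up_symm (hu : UpDown G h s t) (d : G.Dart) : Up h d.symm ↔ ¬ Up h d := by
  constructor
  · intro h1 h2
    exact lt_asymm h1 h2
  · intro h1
    exact (up_or hu d).resolve_left h1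

theorem F0_next (d : G.Dart) : F0 σ d₀ (faceNext σ d) ↔ F0 σ d₀ d :=
  Equiv.Perm.sameCycle_apply_right

theorem F0_sigma (d : G.Dart) : F0 σ d₀ (σ d) ↔ F0 σ d₀ d.symm := by
  rw [← faceNext_symm', F0_next]

theorem State.sigma {W : Set G.Dart} (hW : State σ d₀ h W) (d : G.Dart) :
    σ d ∈ W ↔ d.symm ∈ W := by
  rw [← faceNext_symm', hW.cl]

theorem h_bot [Finite V] (hu : UpDown G h s t) (v : V) : h s ≤ h v := by
  have : Nonempty V := ⟨s⟩
  obtain ⟨m, hm⟩ := Finite.exists_min h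
  by_cases hms : m = s
  · exact hms ▸ hm v
  · obtain ⟨u, -, h2⟩ := hu.low m hms
    exact absurd (hm u) (not_le.2 h2)

theorem h_top [Finite V] (hu : UpDown G h s t) (v : V) : h v ≤ h t := by
  have : Nonempty V := ⟨s⟩
  obtain ⟨m, hm⟩ := Finite.exists_max h
  by_cases hms : m = t
  · exact hms ▸ hm v
  · obtain ⟨u, -, h2⟩ := hu.high m hms
    exact absurd (hm u) (not_le.2 h2)

theorem up_at_s [Finite V] (hu : UpDown G h s t) {d : G.Dart} (hd : d.fst = s) : Up h d := by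
  have h1 := h_bot hu d.snd
  have h2 := hu.ne _ _ d.adj
  rw [← hd] at h1
  exact lt_of_le_of_ne h1 h2

theorem not_up_at_t [Finite V] (hu : UpDown G h s t) {d : G.Dart} (hd : d.fst = t) : ¬ Up h d := by
  have h1 := h_top hu d.snd
  rw [← hd] at h1
  exact not_lt.2 h1

/-- a dart of the outer face at `s` -/
theorem Ctx.exists_s (C : Ctx σ d₀ h s t) : ∃ d, F0 σ d₀ d ∧ d.fst = s := C.hs

theorem Ctx.exists_t (C : Ctx σ d₀ h s t) : ∃ d, F0 σ d₀ d ∧ d.fst = t := C.ht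

theorem Ctx.inv_fst (C : Ctx σ d₀ h s t) (d : G.Dart) : (σ⁻¹ d).fst = d.fst := by
  have := C.pm.fst (σ⁻¹ d)
  rw [apply_inv'] at this
  exact this.symm

theorem next_symm_inv (d : G.Dart) : faceNext σ (σ⁻¹ d).symm = d := by
  rw [faceNext_symm', apply_inv']

/-- the only bottom of the outer face is at `s` -/
theorem Ctx.bottom [Finite V] (C : Ctx σ d₀ h s t) {d e : G.Dart} (hd : F0 σ d₀ d) (hd1 : Up h d)
    (hd2 : Up h (σ⁻¹ d)) (he : F0 σ d₀ e) (hes : e.fst = s) : d = e := by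
  have h1 : (faceNext σ).SameCycle (σ⁻¹ d).symm (σ⁻¹ e).symm := by
    have h2 : F0 σ d₀ (σ⁻¹ d).symm := by
      rw [← F0_next, next_symm_inv]; exact hd
    have h3 : F0 σ d₀ (σ⁻¹ e).symm := by
      rw [← F0_next, next_symm_inv]; exact he
    exact h2.symm.trans h3
  have h4 := C.du2 _ _ h1 (fun h5 => (up_symm C.ud _).1 h5 hd2)
    (by rw [next_symm_inv]; exact hd1)
    (fun h5 => (up_symm C.ud _).1 h5 (up_at_s C.ud (by rw [C.inv_fst, hes])))
    (by rw [next_symm_inv]; exact up_at_s C.ud hes)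
  have h5 := congrArg (faceNext σ) h4
  rwa [next_symm_inv, next_symm_inv] at h5

/-- the only top of the outer face is at `t` -/
theorem Ctx.peak [Finite V] (C : Ctx σ d₀ h s t) {d e : G.Dart} (hd : F0 σ d₀ d) (hd1 : ¬ Up h d)
    (hd2 : ¬ Up h (σ⁻¹ d)) (he : F0 σ d₀ e) (hes : e.fst = t) : d = e := by
  have h1 : (faceNext σ).SameCycle (σ⁻¹ d).symm (σ⁻¹ e).symm := by
    have h2 : F0 σ d₀ (σ⁻¹ d).symm := by
      rw [← F0_next, next_symm_inv]; exact hd
    have h3 : F0 σ d₀ (σ⁻¹ e).symm := by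
      rw [← F0_next, next_symm_inv]; exact he
    exact h2.symm.trans h3
  have h4 := C.ud2 _ _ h1 ((up_symm C.ud _).2 hd2)
    (by rw [next_symm_inv]; exact hd1)
    ((up_symm C.ud _).2 (not_up_at_t C.ud (by rw [C.inv_fst, hes])))
    (by rw [next_symm_inv]; exact not_up_at_t C.ud hes)
  have h5 := congrArg (faceNext σ) h4
  rwa [next_symm_inv, next_symm_inv] at h5

theorem Ctx.bottom_fst [Finite V] (C : Ctx σ d₀ h s t) {d : G.Dart} (hd : F0 σ d₀ d) (hd1 : Up h d)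
    (hd2 : Up h (σ⁻¹ d)) : d.fst = s := by
  obtain ⟨e, he, hes⟩ := C.exists_s
  rw [C.bottom hd hd1 hd2 he hes, hes]

theorem Ctx.peak_fst [Finite V] (C : Ctx σ d₀ h s t) {d : G.Dart} (hd : F0 σ d₀ d) (hd1 : ¬ Up h d)
    (hd2 : ¬ Up h (σ⁻¹ d)) : d.fst = t := by
  obtain ⟨e, he, hes⟩ := C.exists_t
  rw [C.peak hd hd1 hd2 he hes, hes]

end Vale.Agent.P235.Red.C
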