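/-
P235-M, row C2.1 (helper418): the front of a state is a unit flow from `s` to `t`.
-/
import Vale.Agent.P235.R2.H418C.Basic

namespace Vale.Agent.P235.Red.C

open Finset

variable {V : Type} {G : SimpleGraph V} {σ : Equiv.Perm G.Dart} {d₀ : G.Dart} {h : V → ℝ}
  {s t : V}

open Classical in
/-- indicator -/
noncomputable def ind (p : Prop) : ℤ := if p then 1 else 0

theorem ind_true {p : Prop} (hp : p) : ind p = 1 := if_pos hp

theorem ind_false {p : Prop} (hp : ¬ p) : ind p = 0 := if_neg hp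

theorem ind_nonneg (p : Prop) : 0 ≤ ind p := by
  unfold ind; split_ifs <;> norm_num

theorem ind_le (p : Prop) : ind p ≤ 1 := by
  unfold ind; split_ifs <;> norm_num

theorem ind_congr {p q : Prop} (hpq : p ↔ q) : ind p = ind q := by
  rw [propext hpq]

theorem ind_mono {p q : Prop} (hpq : p → q) : ind p ≤ ind q := by
  by_cases hp : p
  · rw [ind_true hp, ind_true (hpq hp)]
  · rw [ind_false hp]; exact ind_nonneg q

variable [Fintype G.Dart]

open Classical in
/-- the darts leaving `v` -/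
noncomputable def star (G : SimpleGraph V) [Fintype G.Dart] (v : V) : Finset G.Dart :=
  univ.filter (fun d => d.fst = v)

theorem mem_star {v : V} {d : G.Dart} : d ∈ star G v ↔ d.fst = v := by
  simp [star]

theorem sum_star (hp : ∀ d, (σ d).fst = d.fst) (v : V) (F : G.Dart → ℤ) :
    ∑ d ∈ star G v, F (σ d) = ∑ d ∈ star G v, F d := by
  refine Finset.sum_equiv σ ?_ (fun _ _ => rfl)
  intro d
  rw [mem_star, mem_star, hp]

/-- number of front darts leaving `v` -/
noncomputable def outN (σ : Equiv.Perm G.Dart) (d₀ : G.Dart) (h : V → ℝ) (W : Set G.Dart)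
    (v : V) : ℤ := ∑ d ∈ star G v, ind (Front σ d₀ h W d)

/-- number of front darts entering `v` -/
noncomputable def inN (σ : Equiv.Perm G.Dart) (d₀ : G.Dart) (h : V → ℝ) (W : Set G.Dart)
    (v : V) : ℤ := ∑ d ∈ star G v, ind (Front σ d₀ h W d.symm)

/-- swept (as left face) -/
noncomputable def aa (σ : Equiv.Perm G.Dart) (d₀ : G.Dart) (W : Set G.Dart) (d : G.Dart) : ℤ :=
  ind (d ∈ W ∨ F0 σ d₀ d)

/-- swept (as right face) -/
noncomputable def bb (W : Set G.Dart) (d : G.Dart) : ℤ := ind (d ∈ W)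

theorem aa_eq {W : Set G.Dart} (hW : State σ d₀ h W) (d : G.Dart) :
    aa σ d₀ W d = bb W d + ind (F0 σ d₀ d) := by
  unfold aa bb
  by_cases h1 : d ∈ W
  · rw [ind_true (Or.inl h1), ind_true h1, ind_false (hW.off d h1)]; norm_num
  · rw [ind_false h1]
    by_cases h2 : F0 σ d₀ d
    · rw [ind_true (Or.inr h2), ind_true h2]; norm_num
    · rw [ind_false h2, ind_false (by tauto)]; norm_num

theorem ind_front (C : Ctx σ d₀ h s t) {W : Set G.Dart} (hW : State σ d₀ h W) (d : G.Dart) :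
    ind (Front σ d₀ h W d) = ind (Up h d) * (aa σ d₀ W (σ d) - bb W d) := by
  have h0 : (σ d ∈ W ∨ F0 σ d₀ (σ d)) ↔ (d.symm ∈ W ∨ F0 σ d₀ d.symm) := by
    rw [hW.sigma, F0_sigma]
  unfold aa bb
  rw [ind_congr h0]
  by_cases hu : Up h d
  · rw [ind_true hu, one_mul]
    by_cases h1 : d ∈ W
    · rw [ind_true h1, ind_true (hW.left d hu h1), ind_false (fun h2 => h2.2.2 h1)]; norm_num
    · rw [ind_false h1, sub_zero]
      exact ind_congr ⟨fun h2 => h2.2.1, fun h2 => ⟨hu, h2, h1⟩⟩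
  · rw [ind_false hu, ind_false (fun h2 => hu h2.1), zero_mul]

theorem ind_front_symm (C : Ctx σ d₀ h s t) {W : Set G.Dart} (hW : State σ d₀ h W) (d : G.Dart) :
    ind (Front σ d₀ h W d.symm) = (1 - ind (Up h d)) * (aa σ d₀ W d - bb W (σ d)) := by
  rw [ind_front C hW]
  have h1 : aa σ d₀ W (σ d.symm) = aa σ d₀ W d := by
    unfold aa
    rw [hW.sigma, F0_sigma, SimpleGraph.Dart.symm_symm]
  have h2 : bb W d.symm = bb W (σ d) := by
    unfold bb
    rw [hW.sigma]
  rw [h1, h2]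
  congr 1
  by_cases hu : Up h d
  · rw [ind_true hu, ind_false (fun h2 => (up_symm C.ud d).1 h2 hu)]; norm_num
  · rw [ind_false hu, ind_true ((up_symm C.ud d).2 hu)]; norm_num

/-- conservation -/
theorem out_sub_in (C : Ctx σ d₀ h s t) {W : Set G.Dart} (hW : State σ d₀ h W) (v : V) :
    outN σ d₀ h W v - inN σ d₀ h W v =
      ∑ d ∈ star G v, ind (F0 σ d₀ d) * (ind (Up h (σ⁻¹ d)) + ind (Up h d) - 1) := by
  have h1 : ∑ d ∈ star G v, bb W (σ d) = ∑ d ∈ star G v, bb W d :=
    sum_star C.pm.fst v (bb W)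
  have h2 : ∑ d ∈ star G v, ind (Up h d) * ind (F0 σ d₀ (σ d)) =
      ∑ d ∈ star G v, ind (Up h (σ⁻¹ d)) * ind (F0 σ d₀ d) := by
    rw [← sum_star C.pm.fst v (fun d => ind (Up h (σ⁻¹ d)) * ind (F0 σ d₀ d))]
    simp
  have h3 : outN σ d₀ h W v - inN σ d₀ h W v =
      (∑ d ∈ star G v, bb W (σ d) - ∑ d ∈ star G v, bb W d) +
      (∑ d ∈ star G v, ind (Up h d) * ind (F0 σ d₀ (σ d)) -
        ∑ d ∈ star G v, (1 - ind (Up h d)) * ind (F0 σ d₀ d)) := by
    unfold outN inN
    rw [← Finset.sum_sub_distrib, ← Finset.sum_sub_distrib, ← Finset.sum_sub_distrib,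
      ← Finset.sum_add_distrib]
    refine Finset.sum_congr rfl (fun d _ => ?_)
    rw [ind_front C hW, ind_front_symm C hW, aa_eq hW, aa_eq hW]
    ring
  rw [h3, h1, h2, sub_self, zero_add, ← Finset.sum_sub_distrib]
  refine Finset.sum_congr rfl (fun d _ => ?_)
  ring

/-- the part of the front count at `v` which grows with the state -/
noncomputable def XX (σ : Equiv.Perm G.Dart) (d₀ : G.Dart) (h : V → ℝ) (W : Set G.Dart)
    (v : V) : ℤ :=
  ∑ d ∈ star G v, ind (Up h (σ⁻¹ d)) * (1 - ind (Up h d)) * aa σ d₀ W d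

/-- the part which decreases -/
noncomputable def YY (σ : Equiv.Perm G.Dart) (h : V → ℝ) (W : Set G.Dart) (v : V) : ℤ :=
  ∑ d ∈ star G v, (1 - ind (Up h (σ⁻¹ d))) * ind (Up h d) * bb W d

variable [Finite V]

theorem out_eq (C : Ctx σ d₀ h s t) {W : Set G.Dart} (hW : State σ d₀ h W) {v : V}
    (hv : v ≠ s) : outN σ d₀ h W v = XX σ d₀ h W v - YY σ h W v := by
  have h1 : outN σ d₀ h W v =
      ∑ d ∈ star G v, ind (Up h (σ⁻¹ d)) * aa σ d₀ W d - ∑ d ∈ star G v, ind (Up h d) * bb W d := by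
    rw [← sum_star C.pm.fst v (fun d => ind (Up h (σ⁻¹ d)) * aa σ d₀ W d),
      ← Finset.sum_sub_distrib]
    unfold outN
    refine Finset.sum_congr rfl (fun d _ => ?_)
    rw [ind_front C hW]
    simp
    ring
  rw [h1]
  unfold XX YY
  rw [← Finset.sum_sub_distrib, ← Finset.sum_sub_distrib]
  refine Finset.sum_congr rfl (fun d hd => ?_)
  by_cases h2 : Up h d
  · by_cases h3 : Up h (σ⁻¹ d)
    · have h4 : ¬ F0 σ d₀ d := by
        intro h5
        exact hv ((mem_star.1 hd).symm.trans (C.bottom_fst h5 h2 h3))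
      rw [aa_eq hW, ind_true h2, ind_true h3, ind_false h4]; ring
    · rw [ind_true h2, ind_false h3]; ring
  · rw [ind_false h2]; ring

theorem XX_le (C : Ctx σ d₀ h s t) (W : Set G.Dart) (v : V) : XX σ d₀ h W v ≤ 1 := by
  classical
  have h1 : XX σ d₀ h W v ≤
      ∑ d ∈ (star G v).filter (fun d => Up h (σ⁻¹ d) ∧ ¬ Up h d), (1 : ℤ) := by
    unfold XX
    rw [Finset.sum_filter]
    refine Finset.sum_le_sum (fun d _ => ?_)
    split_ifs with h2
    · rw [ind_true h2.1, ind_false h2.2]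
      have := ind_le (d ∈ W ∨ F0 σ d₀ d)
      unfold aa
      linarith
    · by_cases h3 : Up h d
      · rw [ind_true h3]; simp
      · rw [ind_false (fun h4 => h2 ⟨h4, h3⟩)]; simp
  refine h1.trans ?_
  rw [Finset.sum_const, nsmul_eq_mul, mul_one]
  have h2 : ((star G v).filter (fun d => Up h (σ⁻¹ d) ∧ ¬ Up h d)).card ≤ 1 := by
    rw [Finset.card_le_one]
    intro d hd e he
    rw [Finset.mem_filter, mem_star] at hd he
    have h3 := C.ud1 (σ⁻¹ d) (σ⁻¹ e) (by rw [C.inv_fst, C.inv_fst, hd.1, he.1]) hd.2.1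
      (by rw [apply_inv']; exact hd.2.2) he.2.1 (by rw [apply_inv']; exact he.2.2)
    exact (σ⁻¹).injective h3
  exact_mod_cast h2

theorem YY_nonneg (W : Set G.Dart) (v : V) : 0 ≤ YY σ h W v := by
  refine Finset.sum_nonneg (fun d _ => ?_)
  have h1 := ind_le (Up h (σ⁻¹ d))
  have h2 := ind_nonneg (Up h d)
  have h3 := ind_nonneg (d ∈ W)
  unfold bb
  exact mul_nonneg (mul_nonneg (by linarith) h2) h3

theorem XX_mono {W W' : Set G.Dart} (hWW : W ⊆ W') (v : V) :
    XX σ d₀ h W v ≤ XX σ d₀ h W' v := by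
  refine Finset.sum_le_sum (fun d _ => ?_)
  have h1 := ind_nonneg (Up h (σ⁻¹ d))
  have h2 := ind_le (Up h d)
  exact mul_le_mul_of_nonneg_left (ind_mono (fun h3 => h3.imp (fun h4 => hWW h4) id))
    (mul_nonneg h1 (by linarith))

theorem YY_mono {W W' : Set G.Dart} (hWW : W ⊆ W') (v : V) :
    YY σ h W v ≤ YY σ h W' v := by
  refine Finset.sum_le_sum (fun d _ => ?_)
  have h1 := ind_le (Up h (σ⁻¹ d))
  have h2 := ind_nonneg (Up h d)
  exact mul_le_mul_of_nonneg_left (ind_mono (fun h4 => hWW h4)) (mul_nonneg (by linarith) h2)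

theorem out_s (C : Ctx σ d₀ h s t) {W : Set G.Dart} (hW : State σ d₀ h W) :
    outN σ d₀ h W s = 1 ∧ inN σ d₀ h W s = 0 := by
  have h1 := out_sub_in C hW s
  have h2 : inN σ d₀ h W s = 0 := by
    refine Finset.sum_eq_zero (fun d hd => ?_)
    refine ind_false (fun h3 => ?_)
    exact (up_symm C.ud d).1 h3.1 (up_at_s C.ud (mem_star.1 hd))
  obtain ⟨e, he, hes⟩ := C.exists_s
  have h4 : ∑ d ∈ star G s, ind (F0 σ d₀ d) * (ind (Up h (σ⁻¹ d)) + ind (Up h d) - 1) = 1 := by
    rw [Finset.sum_eq_single e]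
    · rw [ind_true he, ind_true (up_at_s C.ud hes),
        ind_true (up_at_s C.ud (by rw [C.inv_fst, hes]))]; norm_num
    · intro d hd hde
      rw [ind_false, zero_mul]
      intro h5
      exact hde (C.bottom h5 (up_at_s C.ud (mem_star.1 hd))
        (up_at_s C.ud (by rw [C.inv_fst, mem_star.1 hd])) he hes)
    · intro h5
      exact absurd (mem_star.2 hes) h5
  refine ⟨?_, h2⟩
  rw [h4, h2] at h1
  linarith

theorem in_t (C : Ctx σ d₀ h s t) {W : Set G.Dart} (hW : State σ d₀ h W) :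
    inN σ d₀ h W t = 1 ∧ outN σ d₀ h W t = 0 := by
  have h1 := out_sub_in C hW t
  have h2 : outN σ d₀ h W t = 0 := by
    refine Finset.sum_eq_zero (fun d hd => ?_)
    refine ind_false (fun h3 => ?_)
    exact not_up_at_t C.ud (mem_star.1 hd) h3.1
  obtain ⟨e, he, hes⟩ := C.exists_t
  have h4 : ∑ d ∈ star G t, ind (F0 σ d₀ d) * (ind (Up h (σ⁻¹ d)) + ind (Up h d) - 1) = -1 := by
    rw [Finset.sum_eq_single e]
    · rw [ind_true he, ind_false (not_up_at_t C.ud hes),
        ind_false (not_up_at_t C.ud (by rw [C.inv_fst, hes]))]; norm_num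
    · intro d hd hde
      rw [ind_false, zero_mul]
      intro h5
      exact hde (C.peak h5 (not_up_at_t C.ud (mem_star.1 hd))
        (not_up_at_t C.ud (by rw [C.inv_fst, mem_star.1 hd])) he hes)
    · intro h5
      exact absurd (mem_star.2 hes) h5
  refine ⟨?_, h2⟩
  rw [h4, h2] at h1
  linarith

theorem out_eq_in (C : Ctx σ d₀ h s t) {W : Set G.Dart} (hW : State σ d₀ h W) {v : V}
    (hs : v ≠ s) (ht : v ≠ t) : outN σ d₀ h W v = inN σ d₀ h W v := by
  have h1 := out_sub_in C hW v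
  have h4 : ∑ d ∈ star G v, ind (F0 σ d₀ d) * (ind (Up h (σ⁻¹ d)) + ind (Up h d) - 1) = 0 := by
    refine Finset.sum_eq_zero (fun d hd => ?_)
    by_cases h0 : F0 σ d₀ d
    · by_cases h2 : Up h d
      · by_cases h3 : Up h (σ⁻¹ d)
        · exact absurd ((mem_star.1 hd).symm.trans (C.bottom_fst h0 h2 h3)) hs
        · rw [ind_true h2, ind_false h3]; norm_num
      · by_cases h3 : Up h (σ⁻¹ d)
        · rw [ind_false h2, ind_true h3]; norm_num
        · exact absurd ((mem_star.1 hd).symm.trans (C.peak_fst h0 h2 h3)) ht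
    · rw [ind_false h0, zero_mul]
  rw [h4] at h1
  linarith

theorem out_le (C : Ctx σ d₀ h s t) {W : Set G.Dart} (hW : State σ d₀ h W) (v : V) :
    outN σ d₀ h W v ≤ 1 := by
  by_cases hs : v = s
  · rw [hs, (out_s C hW).1]
  · rw [out_eq C hW hs]
    have := XX_le C W v
    have := YY_nonneg (σ := σ) (h := h) W v
    linarith

theorem in_le (C : Ctx σ d₀ h s t) {W : Set G.Dart} (hW : State σ d₀ h W) (v : V) :
    inN σ d₀ h W v ≤ 1 := by
  by_cases hs : v = s
  · rw [hs, (out_s C hW).2]; norm_num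
  · by_cases ht : v = t
    · rw [ht, (in_t C hW).1]
    · rw [← out_eq_in C hW hs ht]
      exact out_le C hW v

theorem eq_of_sum_le {S : Finset G.Dart} {p : G.Dart → Prop} (hs : ∑ d ∈ S, ind (p d) ≤ 1)
    {d e : G.Dart} (hd : d ∈ S) (he : e ∈ S) (hpd : p d) (hpe : p e) : d = e := by
  classical
  by_contra hne
  have h1 : ∑ x ∈ ({d, e} : Finset G.Dart), ind (p x) ≤ ∑ x ∈ S, ind (p x) := by
    refine Finset.sum_le_sum_of_subset_of_nonneg ?_ (fun _ _ _ => ind_nonneg _)
    intro x hx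
    rw [Finset.mem_insert, Finset.mem_singleton] at hx
    rcases hx with rfl | rfl
    · exact hd
    · exact he
  rw [Finset.sum_pair hne, ind_true hpd, ind_true hpe] at h1
  linarith

theorem exists_of_sum_pos {S : Finset G.Dart} {p : G.Dart → Prop} (hs : 0 < ∑ d ∈ S, ind (p d)) :
    ∃ d ∈ S, p d := by
  by_contra hne
  push Not at hne
  rw [Finset.sum_eq_zero (fun d hd => ind_false (hne d hd))] at hs
  exact lt_irrefl _ hs

theorem sum_pos_of_mem {S : Finset G.Dart} {p : G.Dart → Prop} {d : G.Dart} (hd : d ∈ S)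
    (hp : p d) : 0 < ∑ d ∈ S, ind (p d) := by
  have h1 : ind (p d) ≤ ∑ d ∈ S, ind (p d) :=
    Finset.single_le_sum (f := fun d => ind (p d)) (fun _ _ => ind_nonneg _) hd
  rw [ind_true hp] at h1
  linarith

theorem flow_aux (C : Ctx σ d₀ h s t) {W : Set G.Dart} (hW : State σ d₀ h W) :
    Flow σ d₀ h s t W := by
  refine ⟨?_, ?_, ?_, ?_, ?_⟩
  · intro d e hd he hde
    exact eq_of_sum_le (out_le C hW e.fst) (mem_star.2 hde) (mem_star.2 rfl) hd he
  · intro d e hd he hde
    have h1 : d.symm = e.symm :=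
      eq_of_sum_le (p := fun x => Front σ d₀ h W x.symm) (in_le C hW e.snd)
        (d := d.symm) (e := e.symm) (mem_star.2 hde) (mem_star.2 rfl)
        (by simpa using hd) (by simpa using he)
    have h2 := congrArg SimpleGraph.Dart.symm h1
    simpa using h2
  · intro v hs ht
    have h1 := out_eq_in C hW hs ht
    constructor
    · rintro ⟨d, hd, rfl⟩
      have h2 : 0 < outN σ d₀ h W d.fst := sum_pos_of_mem (mem_star.2 rfl) hd
      rw [h1] at h2
      obtain ⟨e, he, hpe⟩ := exists_of_sum_pos h2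
      exact ⟨e.symm, hpe, mem_star.1 he⟩
    · rintro ⟨d, hd, rfl⟩
      have h2 : 0 < inN σ d₀ h W d.snd :=
        sum_pos_of_mem (p := fun x => Front σ d₀ h W x.symm) (d := d.symm) (mem_star.2 rfl)
          (by simpa using hd)
      rw [← h1] at h2
      obtain ⟨e, he, hpe⟩ := exists_of_sum_pos h2
      exact ⟨e, hpe, mem_star.1 he⟩
  · have h1 := (out_s C hW).1
    obtain ⟨e, he, hpe⟩ := exists_of_sum_pos (S := star G s) (p := fun x => Front σ d₀ h W x)
      (by change 0 < outN σ d₀ h W s; rw [h1]; norm_num)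
    exact ⟨e, hpe, mem_star.1 he⟩
  · have h1 := (in_t C hW).1
    obtain ⟨e, he, hpe⟩ := exists_of_sum_pos (S := star G t) (p := fun x => Front σ d₀ h W x.symm)
      (by change 0 < inN σ d₀ h W t; rw [h1]; norm_num)
    exact ⟨e.symm, hpe, mem_star.1 he⟩

omit [Fintype G.Dart] in
theorem finite_dart (G : SimpleGraph V) : Finite G.Dart :=
  Finite.of_injective (fun d : G.Dart => (d.fst, d.snd))
    (fun d e hde => by
      have h1 : d.toProd = e.toProd := hde
      exact SimpleGraph.Dart.ext _ _ h1)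

end Vale.Agent.P235.Red.C

namespace Vale.Agent.P235.Red.C

/-- row C2.1 -/
theorem c21 : C21 := by
  intro V _ G σ d₀ h s t C W hW
  have := finite_dart G
  have := Fintype.ofFinite G.Dart
  exact flow_aux C hW

theorem mem_PW_iff {V : Type} [Finite V] {G : SimpleGraph V} [Fintype G.Dart]
    {σ : Equiv.Perm G.Dart} {d₀ : G.Dart} {h : V → ℝ} {s t : V} {W : Set G.Dart} {v : V}
    (hv : v ≠ t) : v ∈ PW σ d₀ h t W ↔ 0 < outN σ d₀ h W v := by
  constructor
  · rintro (h1 | ⟨d, hd, rfl⟩)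
    · exact absurd h1 hv
    · exact sum_pos_of_mem (mem_star.2 rfl) hd
  · intro h1
    obtain ⟨e, he, hpe⟩ := exists_of_sum_pos h1
    exact Or.inr ⟨e, hpe, mem_star.1 he⟩

/-- row C2.1': contiguity -/
theorem c21' : C21' := by
  intro V _ G σ d₀ h s t C W₁ W₂ W₃ hW1 hW2 hW3 h12 h23 v hv1 hv3
  have := finite_dart G
  have := Fintype.ofFinite G.Dart
  by_cases ht : v = t
  · exact Or.inl ht
  by_cases hs : v = s
  · rw [mem_PW_iff (s := s) ht, hs, (out_s C hW2).1]; norm_num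
  rw [mem_PW_iff (s := s) ht, out_eq C ‹_› hs] at hv1 hv3 ⊢
  have x1 := XX_le C W₁ v
  have x2 := XX_le C W₃ v
  have x3 := XX_mono (σ := σ) (d₀ := d₀) (h := h) h12 v
  have x4 := YY_mono (σ := σ) (h := h) h23 v
  have x5 := YY_nonneg (σ := σ) (h := h) W₁ v
  have x6 := YY_nonneg (σ := σ) (h := h) W₃ v
  linarith

end Vale.Agent.P235.Red.C
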